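import Vale.Agent.Lib.P072.H28.Defs

/-!
# P072 (helper28): sign of the drift near the ends of a one-dimensional class
-/

namespace Vale.Agent.Lib.P072.H28

open scoped BigOperators
open Finset

/-- A finite sum `∑ a_r ε^(m_r) A_r(ε)` whose lowest-order terms all have negative
coefficients is negative for small `ε`. -/
lemma core_sign {ι : Type*} (R : Finset ι) (a : ι → ℝ) (m : ι → ℕ) (A : ι → ℝ → ℝ)
    (hA : ∀ r ∈ R, ContinuousAt (A r) 0) (hA0 : ∀ r ∈ R, 0 < A r 0)
    (ha : ∀ r ∈ R, m r = 0 → a r < 0) (hex : ∃ r ∈ R, m r = 0) :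
    ∃ δ > 0, ∀ ε : ℝ, |ε| < δ → ∑ r ∈ R, a r * ε ^ m r * A r ε < 0 := by
  have hcont : ContinuousAt (fun ε : ℝ => ∑ r ∈ R, a r * ε ^ m r * A r ε) 0 := by
    apply tendsto_finsetSum
    intro r hr
    exact (continuousAt_const.mul (continuousAt_id.pow _)).mul (hA r hr)
  have h0 : (∑ r ∈ R, a r * (0 : ℝ) ^ m r * A r 0) < 0 := by
    apply Finset.sum_neg'
    · intro r hr
      by_cases hm : m r = 0
      · rw [hm, pow_zero, mul_one]
        exact (mul_neg_of_neg_of_pos (ha r hr hm) (hA0 r hr)).le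
      · rw [zero_pow hm]; simp
    · obtain ⟨r, hr, hm⟩ := hex
      refine ⟨r, hr, ?_⟩
      rw [hm, pow_zero, mul_one]
      exact mul_neg_of_neg_of_pos (ha r hr hm) (hA0 r hr)
  have hev := hcont.eventually_lt (continuousAt_const (y := (0 : ℝ))) h0
  rw [Metric.eventually_nhds_iff] at hev
  obtain ⟨δ, hδ, hall⟩ := hev
  refine ⟨δ, hδ, fun ε hε => ?_⟩
  apply hall
  rw [Real.dist_eq, sub_zero]
  exact hε

/-- Expansion of a monomial near a boundary point `p` of the orthant. -/
lemma mono_face {d : ℕ} (p q : Fin d → ℝ) (y : Cplx d) (ε : ℝ) :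
    mono y (p + ε • q) = ε ^ (∑ i ∈ univ.filter (fun i => p i = 0), y i) *
      ((∏ i ∈ univ.filter (fun i => p i = 0), q i ^ y i) *
        ∏ i ∈ univ.filter (fun i => ¬ p i = 0), (p i + ε * q i) ^ y i) := by
  unfold mono
  rw [← Finset.prod_filter_mul_prod_filter_not univ (fun i => p i = 0), ← mul_assoc]
  congr 1
  rw [← Finset.prod_pow_eq_pow_sum, ← Finset.prod_mul_distrib]
  apply Finset.prod_congr rfl
  intro i hi
  have hp : p i = 0 := (Finset.mem_filter.mp hi).2
  simp [hp, mul_pow]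

/-- Expansion of a monomial far out along a direction `u`. -/
lemma mono_far {d : ℕ} (c u : Fin d → ℝ) (y : Cplx d) (s : ℝ) (hs : s ≠ 0) :
    mono y (c + s • u) = s ^ (∑ i ∈ univ.filter (fun i => ¬ u i = 0), y i) *
      ((∏ i ∈ univ.filter (fun i => ¬ u i = 0), (u i + s⁻¹ * c i) ^ y i) *
        ∏ i ∈ univ.filter (fun i => u i = 0), c i ^ y i) := by
  unfold mono
  rw [← Finset.prod_filter_not_mul_prod_filter univ (fun i => u i = 0), ← mul_assoc]
  congr 1
  · rw [← Finset.prod_pow_eq_pow_sum, ← Finset.prod_mul_distrib]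
    apply Finset.prod_congr rfl
    intro i _
    rw [← mul_pow]
    congr 1
    simp only [Pi.add_apply, Pi.smul_apply, smul_eq_mul]
    field_simp
    ring
  · apply Finset.prod_congr rfl
    intro i hi
    have hp : u i = 0 := (Finset.mem_filter.mp hi).2
    simp [hp]

/-- The target of every reaction of a weakly reversible network is the source of a
reaction. -/
lemma target_is_source {d : ℕ} {R : Finset (Rxn d)} (hne : ∀ r ∈ R, r.1 ≠ r.2)
    (hwr : WeaklyReversible R) {r : Rxn d} (hr : r ∈ R) : ∃ r' ∈ R, r'.1 = r.2 := by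
  rcases Relation.ReflTransGen.cases_head (hwr r hr) with h | ⟨z, hz, _⟩
  · exact absurd h.symm (hne r hr)
  · exact ⟨(r.2, z), hz, rfl⟩

/-- Change of a coordinate weight along a reaction. -/
lemma weight_diff {d : ℕ} (Z : Finset (Fin d)) (r : Rxn d) (u : Fin d → ℝ) (ν : ℝ)
    (hν : rvec r = ν • u) :
    ((∑ i ∈ Z, r.2 i : ℕ) : ℝ) - ((∑ i ∈ Z, r.1 i : ℕ) : ℝ) = ν * ∑ i ∈ Z, u i := by
  push_cast
  rw [← Finset.sum_sub_distrib, Finset.mul_sum]
  apply Finset.sum_congr rfl
  intro i _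
  have := congrFun hν i
  simpa [rvec] using this

lemma nu_ne_zero {d : ℕ} {r : Rxn d} (hne : r.1 ≠ r.2) (u : Fin d → ℝ) (ν : ℝ)
    (hν : rvec r = ν • u) : ν ≠ 0 := by
  intro h0
  apply hne
  funext i
  have := congrFun hν i
  simp only [rvec, h0, zero_smul, Pi.zero_apply] at this
  have h2 : (r.2 i : ℝ) = (r.1 i : ℝ) := by linarith
  exact (Nat.cast_injective h2).symm

end Vale.Agent.Lib.P072.H28
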