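import Mathlib

/-!
# P072 (helper28): mass-action systems, basic definitions

Complexes are vectors of natural numbers, a reaction `y → y'` is the pair `(y, y')`,
a network is a finite set of reactions.
-/

namespace Vale.Agent.Lib.P072.H28

open scoped BigOperators

/-- A complex of a network with `d` species: a vector of natural numbers. -/
abbrev Cplx (d : ℕ) : Type := Fin d → ℕ

/-- A reaction `y → y'` is the pair `(y, y')`. -/
abbrev Rxn (d : ℕ) : Type := Cplx d × Cplx d

/-- The monomial `x ^ y = ∏ i, x i ^ y i`. -/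
def mono {d : ℕ} (y : Cplx d) (x : Fin d → ℝ) : ℝ := ∏ i, x i ^ y i

/-- The reaction vector `y' - y` of the reaction `r = (y, y')`, as a real vector. -/
def rvec {d : ℕ} (r : Rxn d) : Fin d → ℝ := fun i => (r.2 i : ℝ) - (r.1 i : ℝ)

/-- The mass-action vector field `f(x) = ∑_{y → y'} k_{y → y'} x^y (y' - y)`. -/
def field {d : ℕ} (R : Finset (Rxn d)) (k : Rxn d → ℝ) (x : Fin d → ℝ) : Fin d → ℝ :=
  ∑ r ∈ R, (k r * mono r.1 x) • rvec r

/-- Weak reversibility: for every reaction `y → y'` there is a directed path of reactions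
from `y'` back to `y`. -/
def WeaklyReversible {d : ℕ} (R : Finset (Rxn d)) : Prop :=
  ∀ r ∈ R, Relation.ReflTransGen (fun a b : Cplx d => (a, b) ∈ R) r.2 r.1

/-- The stoichiometric subspace: the real span of the reaction vectors. -/
def stoich {d : ℕ} (R : Finset (Rxn d)) : Submodule ℝ (Fin d → ℝ) :=
  Submodule.span ℝ (rvec '' (R : Set (Rxn d)))

/-- The positive stoichiometric class of `c`. -/
def posClass {d : ℕ} (R : Finset (Rxn d)) (c : Fin d → ℝ) : Set (Fin d → ℝ) :=
  {x | x - c ∈ stoich R ∧ ∀ i, 0 < x i}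

end Vale.Agent.Lib.P072.H28
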