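import Vale.Agent.Lib.P072.H28.Core

/-!
# P072 (helper28): the drift points inward near both ends of a one-dimensional class
-/

namespace Vale.Agent.Lib.P072.H28

open scoped BigOperators
open Finset

/-- The scalar drift: when every reaction vector is `ν r • u`, the mass-action field with
rates `κ` equals `drift R κ ν x • u`. -/
def drift {d : ℕ} (R : Finset (Rxn d)) (κ ν : Rxn d → ℝ) (x : Fin d → ℝ) : ℝ :=
  ∑ r ∈ R, κ r * ν r * mono r.1 x

/-- If the ray `c + s u` leaves the positive orthant at a finite parameter, then close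
to the exit point the drift along `u` is negative. -/
lemma end_finite {d : ℕ} (R : Finset (Rxn d)) (hR : R.Nonempty) (hne : ∀ r ∈ R, r.1 ≠ r.2)
    (hwr : WeaklyReversible R) (u : Fin d → ℝ) (ν : Rxn d → ℝ)
    (hν : ∀ r ∈ R, rvec r = ν r • u)
    (κ : Rxn d → ℝ) (hκ : ∀ r ∈ R, 0 < κ r) (c : Fin d → ℝ) (hc : ∀ i, 0 < c i)
    (hneg : ∃ i, u i < 0) :
    ∃ β, 0 ≤ β ∧ (∀ i, 0 < c i + β * u i) ∧
      ∀ s, β ≤ s → (∀ i, 0 < c i + s * u i) → drift R κ ν (c + s • u) < 0 := by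
  classical
  have hSne : (univ.filter (fun i => u i < 0)).Nonempty := by
    obtain ⟨i, hi⟩ := hneg
    exact ⟨i, by simp [hi]⟩
  obtain ⟨j, hjS, hjmin⟩ :=
    Finset.exists_min_image (univ.filter (fun i => u i < 0)) (fun i => c i / (-u i)) hSne
  have huj : u j < 0 := (Finset.mem_filter.mp hjS).2
  obtain ⟨sm, hsm⟩ : ∃ sm : ℝ, sm = c j / (-u j) := ⟨_, rfl⟩
  have hsm_pos : 0 < sm := by rw [hsm]; exact div_pos (hc j) (by linarith)
  have hsmj : c j + sm * u j = 0 := by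
    have hu' : u j ≠ 0 := ne_of_lt huj
    rw [hsm]; field_simp; ring
  have hb_nonneg : ∀ i, 0 ≤ c i + sm * u i := by
    intro i
    by_cases hui : u i < 0
    · have hi : i ∈ univ.filter (fun i => u i < 0) := by simp [hui]
      have h2 : sm ≤ c i / (-u i) := by rw [hsm]; exact hjmin i hi
      have h3 : sm * (-u i) ≤ c i := by
        rwa [le_div_iff₀ (by linarith)] at h2
      linarith
    · have hui' : 0 ≤ u i := not_lt.mp hui
      have : 0 ≤ sm * u i := mul_nonneg hsm_pos.le hui'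
      linarith [hc i]
  obtain ⟨b, hb⟩ : ∃ b : Fin d → ℝ, b = c + sm • u := ⟨_, rfl⟩
  have hbi : ∀ i, b i = c i + sm * u i := by
    intro i; rw [hb]; simp
  have hbnn : ∀ i, 0 ≤ b i := fun i => by rw [hbi]; exact hb_nonneg i
  obtain ⟨Z, hZ⟩ : ∃ Z : Finset (Fin d), Z = univ.filter (fun i => b i = 0) := ⟨_, rfl⟩
  have hjZ : j ∈ Z := by rw [hZ]; simp [hbi, hsmj]
  have huZ : ∀ i ∈ Z, u i < 0 := by
    intro i hi
    rw [hZ] at hi
    have hbi0 : b i = 0 := (Finset.mem_filter.mp hi).2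
    by_contra hui
    have hui' : 0 ≤ u i := not_lt.mp hui
    have : 0 ≤ sm * u i := mul_nonneg hsm_pos.le hui'
    rw [hbi] at hbi0
    linarith [hc i]
  have hsumZ : ∑ i ∈ Z, u i < 0 := Finset.sum_neg huZ ⟨j, hjZ⟩
  obtain ⟨r0, hr0, hr0min⟩ := Finset.exists_min_image R (fun r => ∑ i ∈ Z, r.1 i) hR
  obtain ⟨w0, hw0⟩ : ∃ w0 : ℕ, w0 = ∑ i ∈ Z, r0.1 i := ⟨_, rfl⟩
  obtain ⟨A, hA⟩ : ∃ A : Rxn d → ℝ → ℝ, A = fun r ε =>
      (∏ i ∈ Z, (-u i) ^ r.1 i) *
        ∏ i ∈ univ.filter (fun i => ¬ b i = 0), (b i + ε * (-u i)) ^ r.1 i := ⟨_, rfl⟩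
  have hAcont : ∀ r ∈ R, ContinuousAt (A r) 0 := by
    intro r _
    apply Continuous.continuousAt
    rw [hA]
    apply Continuous.mul continuous_const
    apply continuous_finsetProd
    intro i _
    fun_prop
  have hA0 : ∀ r ∈ R, 0 < A r 0 := by
    intro r _
    rw [hA]
    simp only [zero_mul, add_zero]
    apply mul_pos
    · apply Finset.prod_pos
      intro i hi
      exact pow_pos (by linarith [huZ i hi]) _
    · apply Finset.prod_pos
      intro i hi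
      have hbi0 : ¬ b i = 0 := (Finset.mem_filter.mp hi).2
      exact pow_pos (lt_of_le_of_ne (hbnn i) (Ne.symm hbi0)) _
  have hsign : ∀ r ∈ R, (∑ i ∈ Z, r.1 i) - w0 = 0 → κ r * ν r < 0 := by
    intro r hr hm
    have hle : ∑ i ∈ Z, r.1 i ≤ w0 := Nat.sub_eq_zero_iff_le.mp hm
    obtain ⟨r', hr', hr'eq⟩ := target_is_source hne hwr hr
    have h1 : w0 ≤ ∑ i ∈ Z, r.2 i := by rw [← hr'eq, hw0]; exact hr0min r' hr'
    have h2 := weight_diff Z r u (ν r) (hν r hr)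
    have h3 : (0 : ℝ) ≤ ν r * ∑ i ∈ Z, u i := by
      rw [← h2]
      have : ((∑ i ∈ Z, r.1 i : ℕ) : ℝ) ≤ ((∑ i ∈ Z, r.2 i : ℕ) : ℝ) := by
        exact_mod_cast hle.trans h1
      linarith
    have hν0 := nu_ne_zero (hne r hr) u (ν r) (hν r hr)
    have hνneg : ν r < 0 := by
      rcases lt_or_gt_of_ne hν0 with h | h
      · exact h
      · exfalso
        have := mul_neg_of_pos_of_neg h hsumZ
        linarith
    exact mul_neg_of_pos_of_neg (hκ r hr) hνneg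
  obtain ⟨δ, hδ, hcore⟩ := core_sign R (fun r => κ r * ν r)
    (fun r => (∑ i ∈ Z, r.1 i) - w0) A hAcont hA0 hsign ⟨r0, hr0, by simp [hw0]⟩
  have hβlt : max 0 (sm - δ / 2) < sm := by
    apply max_lt hsm_pos; linarith
  refine ⟨max 0 (sm - δ / 2), le_max_left _ _, ?_, ?_⟩
  · intro i
    by_cases hui : u i < 0
    · have := hb_nonneg i
      nlinarith
    · have hui' : 0 ≤ u i := not_lt.mp hui
      have : 0 ≤ max 0 (sm - δ / 2) * u i := mul_nonneg (le_max_left _ _) hui'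
      linarith [hc i]
  · intro s hβs hspos
    have hs_lt : s < sm := by
      have := hspos j
      nlinarith
    obtain ⟨ε, hε⟩ : ∃ ε : ℝ, ε = sm - s := ⟨_, rfl⟩
    have hεpos : 0 < ε := by rw [hε]; linarith
    have hεlt : |ε| < δ := by
      rw [abs_of_pos hεpos, hε]
      have : sm - δ / 2 ≤ s := le_trans (le_max_right _ _) hβs
      linarith
    have hx : c + s • u = b + ε • (-u) := by
      funext i
      simp only [Pi.add_apply, Pi.smul_apply, smul_eq_mul, Pi.neg_apply, hbi, hε]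
      ring
    have hkey := hcore ε hεlt
    unfold drift
    rw [hx]
    have hsum : ∑ r ∈ R, κ r * ν r * mono r.1 (b + ε • (-u)) =
        ε ^ w0 * ∑ r ∈ R, κ r * ν r * ε ^ ((∑ i ∈ Z, r.1 i) - w0) * A r ε := by
      rw [Finset.mul_sum]
      apply Finset.sum_congr rfl
      intro r hr
      rw [mono_face, ← hZ]
      have hle : w0 ≤ ∑ i ∈ Z, r.1 i := by rw [hw0]; exact hr0min r hr
      have hpow : ε ^ (∑ i ∈ Z, r.1 i) = ε ^ w0 * ε ^ ((∑ i ∈ Z, r.1 i) - w0) := by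
        rw [← pow_add, Nat.add_sub_cancel' hle]
      rw [hpow, hA]
      simp only [Pi.neg_apply]
      ring
    rw [hsum]
    exact mul_neg_of_pos_of_neg (pow_pos hεpos _) hkey

/-- If the ray `c + s u` never leaves the positive orthant, then far out the drift along
`u` is negative. -/
lemma end_infinite {d : ℕ} (R : Finset (Rxn d)) (hR : R.Nonempty) (hne : ∀ r ∈ R, r.1 ≠ r.2)
    (hwr : WeaklyReversible R) (u : Fin d → ℝ) (hu0 : u ≠ 0) (ν : Rxn d → ℝ)
    (hν : ∀ r ∈ R, rvec r = ν r • u)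
    (κ : Rxn d → ℝ) (hκ : ∀ r ∈ R, 0 < κ r) (c : Fin d → ℝ) (hc : ∀ i, 0 < c i)
    (hnn : ∀ i, 0 ≤ u i) :
    ∃ β, 0 ≤ β ∧ (∀ i, 0 < c i + β * u i) ∧
      ∀ s, β ≤ s → (∀ i, 0 < c i + s * u i) → drift R κ ν (c + s • u) < 0 := by
  classical
  obtain ⟨Z, hZ⟩ : ∃ Z : Finset (Fin d), Z = univ.filter (fun i => ¬ u i = 0) := ⟨_, rfl⟩
  have hZne : Z.Nonempty := by
    by_contra h
    apply hu0
    funext i
    by_contra hi
    exact h ⟨i, by rw [hZ]; simpa using hi⟩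
  have huZ : ∀ i ∈ Z, 0 < u i := by
    intro i hi
    rw [hZ] at hi
    exact lt_of_le_of_ne (hnn i) (Ne.symm (Finset.mem_filter.mp hi).2)
  have hsumZ : 0 < ∑ i ∈ Z, u i := Finset.sum_pos huZ hZne
  obtain ⟨r0, hr0, hr0max⟩ := Finset.exists_max_image R (fun r => ∑ i ∈ Z, r.1 i) hR
  obtain ⟨W1, hW1⟩ : ∃ W1 : ℕ, W1 = ∑ i ∈ Z, r0.1 i := ⟨_, rfl⟩
  obtain ⟨B, hB⟩ : ∃ B : Rxn d → ℝ → ℝ, B = fun r ε =>
      (∏ i ∈ Z, (u i + ε * c i) ^ r.1 i) *
        ∏ i ∈ univ.filter (fun i => u i = 0), c i ^ r.1 i := ⟨_, rfl⟩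
  have hBcont : ∀ r ∈ R, ContinuousAt (B r) 0 := by
    intro r _
    apply Continuous.continuousAt
    rw [hB]
    apply Continuous.mul _ continuous_const
    apply continuous_finsetProd
    intro i _
    fun_prop
  have hB0 : ∀ r ∈ R, 0 < B r 0 := by
    intro r _
    rw [hB]
    simp only [zero_mul, add_zero]
    apply mul_pos
    · apply Finset.prod_pos
      intro i hi
      exact pow_pos (huZ i hi) _
    · apply Finset.prod_pos
      intro i _
      exact pow_pos (hc i) _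
  have hsign : ∀ r ∈ R, W1 - (∑ i ∈ Z, r.1 i) = 0 → κ r * ν r < 0 := by
    intro r hr hm
    have hle : W1 ≤ ∑ i ∈ Z, r.1 i := Nat.sub_eq_zero_iff_le.mp hm
    obtain ⟨r', hr', hr'eq⟩ := target_is_source hne hwr hr
    have h1 : ∑ i ∈ Z, r.2 i ≤ W1 := by rw [← hr'eq, hW1]; exact hr0max r' hr'
    have h2 := weight_diff Z r u (ν r) (hν r hr)
    have h3 : ν r * ∑ i ∈ Z, u i ≤ 0 := by
      rw [← h2]
      have : ((∑ i ∈ Z, r.2 i : ℕ) : ℝ) ≤ ((∑ i ∈ Z, r.1 i : ℕ) : ℝ) := by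
        exact_mod_cast h1.trans hle
      linarith
    have hν0 := nu_ne_zero (hne r hr) u (ν r) (hν r hr)
    have hνneg : ν r < 0 := by
      rcases lt_or_gt_of_ne hν0 with h | h
      · exact h
      · exfalso
        have := mul_pos h hsumZ
        linarith
    exact mul_neg_of_pos_of_neg (hκ r hr) hνneg
  obtain ⟨δ, hδ, hcore⟩ := core_sign R (fun r => κ r * ν r)
    (fun r => W1 - ∑ i ∈ Z, r.1 i) B hBcont hB0 hsign ⟨r0, hr0, by simp [hW1]⟩
  have hβpos : 0 < 1 / δ + 1 := by positivity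
  refine ⟨1 / δ + 1, hβpos.le, ?_, ?_⟩
  · intro i
    have : 0 ≤ (1 / δ + 1) * u i := mul_nonneg hβpos.le (hnn i)
    linarith [hc i]
  · intro s hβs _
    have hspos : 0 < s := lt_of_lt_of_le hβpos hβs
    have hεpos : 0 < s⁻¹ := inv_pos.mpr hspos
    have hεlt : |s⁻¹| < δ := by
      rw [abs_of_pos hεpos, inv_lt_comm₀ hspos hδ]
      have : δ⁻¹ = 1 / δ := by rw [one_div]
      linarith
    have hkey := hcore s⁻¹ hεlt
    unfold drift
    have hsum : ∑ r ∈ R, κ r * ν r * mono r.1 (c + s • u) =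
        s ^ W1 * ∑ r ∈ R, κ r * ν r * s⁻¹ ^ (W1 - ∑ i ∈ Z, r.1 i) * B r s⁻¹ := by
      rw [Finset.mul_sum]
      apply Finset.sum_congr rfl
      intro r hr
      rw [mono_far c u r.1 s hspos.ne', ← hZ]
      have hle : ∑ i ∈ Z, r.1 i ≤ W1 := by rw [hW1]; exact hr0max r hr
      have hpow : s ^ (∑ i ∈ Z, r.1 i) = s ^ W1 * s⁻¹ ^ (W1 - ∑ i ∈ Z, r.1 i) := by
        have h1 : s ^ W1 = s ^ (∑ i ∈ Z, r.1 i) * s ^ (W1 - ∑ i ∈ Z, r.1 i) := by
          rw [← pow_add, Nat.add_sub_cancel' hle]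
        rw [h1, mul_assoc, ← mul_pow, mul_inv_cancel₀ hspos.ne', one_pow, mul_one]
      rw [hpow, hB]
      ring
    rw [hsum]
    exact mul_neg_of_pos_of_neg (pow_pos hspos _) hkey

/-- Both kinds of end together: moving far enough along `u` inside the positive orthant,
the drift along `u` becomes negative. -/
lemma end_any {d : ℕ} (R : Finset (Rxn d)) (hR : R.Nonempty) (hne : ∀ r ∈ R, r.1 ≠ r.2)
    (hwr : WeaklyReversible R) (u : Fin d → ℝ) (hu0 : u ≠ 0) (ν : Rxn d → ℝ)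
    (hν : ∀ r ∈ R, rvec r = ν r • u)
    (κ : Rxn d → ℝ) (hκ : ∀ r ∈ R, 0 < κ r) (c : Fin d → ℝ) (hc : ∀ i, 0 < c i) :
    ∃ β, 0 ≤ β ∧ (∀ i, 0 < c i + β * u i) ∧
      ∀ s, β ≤ s → (∀ i, 0 < c i + s * u i) → drift R κ ν (c + s • u) < 0 := by
  by_cases hneg : ∃ i, u i < 0
  · exact end_finite R hR hne hwr u ν hν κ hκ c hc hneg
  · have hnn : ∀ i, 0 ≤ u i := fun i => not_lt.mp (fun h => hneg ⟨i, h⟩)
    exact end_infinite R hR hne hwr u hu0 ν hν κ hκ c hc hnn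

end Vale.Agent.Lib.P072.H28
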