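import Vale.Agent.Lib.P072.H28.Scalar

/-!
# P072 (helper28): global solutions of a scalar autonomous equation trapped in an interval
-/

namespace Vale.Agent.Lib.P072.H28

open Set Metric
open scoped NNReal Topology

/-- Clamping a real number to the interval `[a0, b0]`. -/
noncomputable def clampI (a0 b0 σ : ℝ) : ℝ := max a0 (min b0 σ)

lemma clampI_mem {a0 b0 : ℝ} (h : a0 ≤ b0) (σ : ℝ) : clampI a0 b0 σ ∈ Icc a0 b0 :=
  ⟨le_max_left _ _, max_le h (min_le_left _ _)⟩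

lemma clampI_of_mem {a0 b0 σ : ℝ} (hσ : σ ∈ Icc a0 b0) : clampI a0 b0 σ = σ := by
  unfold clampI
  rw [min_eq_right hσ.2, max_eq_right hσ.1]

lemma clampI_lipschitz (a0 b0 : ℝ) : LipschitzWith 1 (clampI a0 b0) :=
  (LipschitzWith.id.const_min b0).const_max a0

lemma Icc_mem_nhdsWithin_Ici_zero {t N : ℝ} (htN : t < N) : Icc 0 N ∈ 𝓝[Ici 0] t :=
  mem_nhdsWithin.mpr ⟨Iio N, isOpen_Iio, htN, fun _ hx => ⟨hx.2, hx.1.le⟩⟩

/-- A scalar autonomous equation `s' = g s` with `g` Lipschitz on `[a0, b0]`, `g a0 > 0`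
and `g b0 < 0` has, from every starting point of `[a0, b0]`, a solution on `[0, ∞)` which
stays in `[a0, b0]`. -/
lemma scalar_global_exists (g : ℝ → ℝ) (a0 b0 s0 : ℝ) (hs0 : s0 ∈ Icc a0 b0)
    (K : ℝ≥0) (hgl : LipschitzOnWith K g (Icc a0 b0)) (hga : 0 < g a0) (hgb : g b0 < 0) :
    ∃ s : ℝ → ℝ, s 0 = s0 ∧
      ∀ t ∈ Ici (0 : ℝ), s t ∈ Icc a0 b0 ∧ HasDerivWithinAt s (g (s t)) (Ici 0) t := by
  have hab : a0 ≤ b0 := hs0.1.trans hs0.2
  obtain ⟨gt, hgt⟩ : ∃ gt : ℝ → ℝ, gt = fun σ => g (clampI a0 b0 σ) := ⟨_, rfl⟩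
  have hgtl : LipschitzWith K gt := by
    have h1 : LipschitzOnWith (K * 1) (g ∘ clampI a0 b0) univ :=
      hgl.comp (clampI_lipschitz a0 b0).lipschitzOnWith (fun σ _ => clampI_mem hab σ)
    rw [mul_one] at h1
    rw [hgt]
    exact lipschitzOnWith_univ.mp h1
  obtain ⟨L, hL⟩ : ∃ L : ℝ, ∀ σ ∈ Icc a0 b0, ‖g σ‖ ≤ L :=
    isCompact_Icc.exists_bound_of_continuousOn hgl.continuousOn
  have hL0 : 0 ≤ L := le_trans (norm_nonneg _) (hL a0 ⟨le_rfl, hab⟩)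
  have hgtb : ∀ σ, ‖gt σ‖ ≤ L := fun σ => by rw [hgt]; exact hL _ (clampI_mem hab σ)
  have hloc : ∀ N : ℕ, ∃ α : ℝ → ℝ, α 0 = s0 ∧
      ∀ t ∈ Icc (0 : ℝ) N, HasDerivWithinAt α (gt (α t)) (Icc (0 : ℝ) N) t := by
    intro N
    have hN : (0 : ℝ) ≤ N := Nat.cast_nonneg N
    have hPL : IsPicardLindelof (fun _ => gt) (tmin := 0) (tmax := N)
        ⟨0, le_rfl, hN⟩ s0 ⟨L * N, mul_nonneg hL0 hN⟩ 0 ⟨L, hL0⟩ K := by
      apply IsPicardLindelof.of_time_independent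
      · intro x _
        exact hgtb x
      · exact hgtl.lipschitzOnWith
      · show L * max ((N : ℝ) - 0) ((0 : ℝ) - 0) ≤ L * N - ((0 : ℝ≥0) : ℝ)
        rw [sub_zero, sub_zero, max_eq_left hN, NNReal.coe_zero, sub_zero]
    obtain ⟨α, hα0, hα⟩ := hPL.exists_eq_forall_mem_Icc_hasDerivWithinAt₀
    exact ⟨α, hα0, hα⟩
  choose α hα0 hα using hloc
  have hright : ∀ (N : ℕ) (τ : ℝ), 0 ≤ τ → τ < N →
      HasDerivWithinAt (α N) (gt (α N τ)) (Ici τ) τ := by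
    intro N τ hτ0 hτN
    have h1 := hα N τ ⟨hτ0, hτN.le⟩
    have h2 : HasDerivWithinAt (α N) (gt (α N τ)) (Ici 0) τ :=
      h1.mono_of_mem_nhdsWithin (Icc_mem_nhdsWithin_Ici_zero hτN)
    exact h2.mono (Ici_subset_Ici.mpr hτ0)
  have hcontN : ∀ N : ℕ, ContinuousOn (α N) (Icc (0 : ℝ) N) :=
    fun N t ht => (hα N t ht).continuousWithinAt
  have hagree : ∀ (N M : ℕ) (t : ℝ), t ∈ Icc (0 : ℝ) N → t ∈ Icc (0 : ℝ) M →
      α N t = α M t := by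
    intro N M t htN htM
    have key := ODE_solution_unique_of_mem_Icc_right (v := fun _ => gt) (s := fun _ => univ)
      (K := K) (f := α N) (g := α M) (a := 0) (b := t)
      (fun _ _ => hgtl.lipschitzOnWith)
      ((hcontN N).mono (Icc_subset_Icc_right htN.2))
      (fun τ hτ => hright N τ hτ.1 (lt_of_lt_of_le hτ.2 htN.2))
      (fun _ _ => mem_univ _)
      ((hcontN M).mono (Icc_subset_Icc_right htM.2))
      (fun τ hτ => hright M τ hτ.1 (lt_of_lt_of_le hτ.2 htM.2))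
      (fun _ _ => mem_univ _) (by rw [hα0, hα0])
    exact key ⟨htN.1, le_rfl⟩
  obtain ⟨s, hs⟩ : ∃ s : ℝ → ℝ, s = fun t => α (⌈t⌉₊ + 1) t := ⟨_, rfl⟩
  have hceil : ∀ t : ℝ, 0 ≤ t → t ∈ Icc (0 : ℝ) ((⌈t⌉₊ + 1 : ℕ) : ℝ) := by
    intro t ht
    refine ⟨ht, ?_⟩
    have := Nat.le_ceil t
    push_cast
    linarith
  have hkey : ∀ (N : ℕ) (t : ℝ), t ∈ Icc (0 : ℝ) N → s t = α N t := by
    intro N t ht
    rw [hs]
    exact hagree _ N t (hceil t ht.1) ht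
  have hs0' : s 0 = s0 := by
    rw [hkey 0 0 ⟨le_rfl, by simp⟩, hα0]
  have hsd : ∀ t ∈ Ici (0 : ℝ), HasDerivWithinAt s (gt (s t)) (Ici 0) t := by
    intro t ht
    have ht0 : (0 : ℝ) ≤ t := ht
    have htN := hceil t ht0
    have hlt : t < ((⌈t⌉₊ + 1 : ℕ) : ℝ) := by
      have := Nat.le_ceil t
      push_cast
      linarith
    have h1 := hα (⌈t⌉₊ + 1) t htN
    have h2 : HasDerivWithinAt s (gt (α (⌈t⌉₊ + 1) t)) (Icc (0 : ℝ) ((⌈t⌉₊ + 1 : ℕ) : ℝ)) t :=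
      h1.congr (fun τ hτ => hkey _ τ hτ) (hkey _ t htN)
    rw [← hkey _ t htN] at h2
    exact h2.mono_of_mem_nhdsWithin (Icc_mem_nhdsWithin_Ici_zero hlt)
  have hsc : ContinuousOn s (Ici 0) := fun t ht => (hsd t ht).continuousWithinAt
  have hsr : ∀ t ∈ Ici (0 : ℝ), HasDerivWithinAt s (gt (s t)) (Ici t) t :=
    fun t ht => (hsd t ht).mono (Ici_subset_Ici.mpr ht)
  have hgtI : ∀ σ ∈ Icc a0 b0, gt σ = g σ := by
    intro σ hσ
    rw [hgt]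
    show g (clampI a0 b0 σ) = g σ
    rw [clampI_of_mem hσ]
  have hgta : gt a0 = g a0 := hgtI a0 ⟨le_rfl, hab⟩
  have hgtb' : gt b0 = g b0 := hgtI b0 ⟨hab, le_rfl⟩
  have hmem : ∀ t ∈ Ici (0 : ℝ), s t ∈ Icc a0 b0 := by
    intro t ht
    have ht0 : (0 : ℝ) ≤ t := ht
    constructor
    · exact barrier_lower (s := s) (s' := fun t => gt (s t)) (t0 := 0) (t1 := t)
        (hsc.mono Icc_subset_Ici_self) (fun τ hτ => hsr τ hτ.1) (by rw [hs0']; exact hs0.1)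
        (fun τ _ hτa => by rw [hτa, hgta]; exact hga) t ⟨ht0, le_rfl⟩
    · exact barrier_upper (s := s) (s' := fun t => gt (s t)) (t0 := 0) (t1 := t)
        (hsc.mono Icc_subset_Ici_self) (fun τ hτ => hsr τ hτ.1) (by rw [hs0']; exact hs0.2)
        (fun τ _ hτb => by rw [hτb, hgtb']; exact hgb) t ⟨ht0, le_rfl⟩
  refine ⟨s, hs0', fun t ht => ⟨hmem t ht, ?_⟩⟩
  have h1 := hsd t ht
  have h2 : gt (s t) = g (s t) := hgtI _ (hmem t ht)
  rw [h2] at h1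
  exact h1

end Vale.Agent.Lib.P072.H28
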