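import Vale.Agent.Lib.P072.H28.Perm
import Vale.Agent.Lib.P072.H28.Exist

/-!
# P072 (helper28): constant rates, existence and uniqueness of the global solutions
-/

namespace Vale.Agent.Lib.P072.H28

open scoped BigOperators Topology NNReal
open Set

/-- Direction, multiples and inward-drift thresholds of a one-dimensional class. -/
lemma line_data {d : ℕ} (R : Finset (Rxn d)) (hne : ∀ r ∈ R, r.1 ≠ r.2)
    (hwr : WeaklyReversible R) (hdim : Module.finrank ℝ (stoich R) = 1)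
    (c : Fin d → ℝ) (hc : ∀ i, 0 < c i) (k : Rxn d → ℝ) (hk : ∀ r ∈ R, 0 < k r) :
    ∃ (v : Fin d → ℝ) (μ : Rxn d → ℝ) (a b : ℝ), v ≠ 0 ∧ (∀ r ∈ R, rvec r = μ r • v) ∧
      (∀ x : Fin d → ℝ, x ∈ stoich R ↔ ∃ s : ℝ, x = s • v) ∧
      (∀ i, 0 < c i + a * v i) ∧ (∀ i, 0 < c i + b * v i) ∧
      (∀ s, s ≤ a → (∀ i, 0 < c i + s * v i) → 0 < drift R k μ (c + s • v)) ∧
      (∀ s, b ≤ s → (∀ i, 0 < c i + s * v i) → drift R k μ (c + s • v) < 0) := by
  obtain ⟨v, μ, hv0, hRne, hμ, hmem⟩ := line_structure R hdim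
  obtain ⟨b, hb0, hbJ, hbneg⟩ := end_any R hRne hne hwr v hv0 μ hμ k hk c hc
  obtain ⟨a', ha0, haJ', haneg⟩ :=
    end_any R hRne hne hwr (-v) (neg_ne_zero.mpr hv0) (fun r => -μ r)
      (fun r hr => by rw [hμ r hr]; simp) k hk c hc
  refine ⟨v, μ, -a', b, hv0, hμ, hmem, ?_, hbJ, ?_, hbneg⟩
  · intro i
    have := haJ' i
    simpa using this
  · intro s hs hpos
    have h1 := haneg (-s) (by linarith) (fun i => by have := hpos i; simpa using this)
    have hx : c + (-s) • (-v) = c + s • v := by simp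
    rw [hx] at h1
    have hd : drift R k (fun r => -μ r) (c + s • v) = - drift R k μ (c + s • v) := by
      unfold drift
      rw [← Finset.sum_neg_distrib]
      apply Finset.sum_congr rfl
      intros
      ring
    linarith

lemma line_conv {d : ℕ} (c v : Fin d → ℝ) (s1 s2 s : ℝ) (h1 : ∀ i, 0 < c i + s1 * v i)
    (h2 : ∀ i, 0 < c i + s2 * v i) (hs1 : s1 ≤ s) (hs2 : s ≤ s2) : ∀ i, 0 < c i + s * v i := by
  intro i
  rcases le_or_gt 0 (v i) with hvi | hvi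
  · have := mul_le_mul_of_nonneg_right hs1 hvi
    linarith [h1 i]
  · have := mul_le_mul_of_nonpos_right hs2 hvi.le
    linarith [h2 i]

/-- Scalar description, with bounds, of a solution for constant rates. -/
lemma const_scalar {d : ℕ} (R : Finset (Rxn d)) (v : Fin d → ℝ) (μ : Rxn d → ℝ)
    (hv : v ≠ 0) (hμ : ∀ r ∈ R, rvec r = μ r • v) (c : Fin d → ℝ) (k : Rxn d → ℝ) (a b : ℝ)
    (hapos : ∀ s, s ≤ a → (∀ i, 0 < c i + s * v i) → 0 < drift R k μ (c + s • v))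
    (hbneg : ∀ s, b ≤ s → (∀ i, 0 < c i + s * v i) → drift R k μ (c + s • v) < 0)
    (D : Set ℝ) (hD0 : ∀ t ∈ D, 0 ≤ t) (hDseg : ∀ t ∈ D, Icc 0 t ⊆ D)
    (x : ℝ → Fin d → ℝ) (s0 : ℝ) (hx0 : x 0 = c + s0 • v)
    (hsol : IsSolOn R (fun _ => k) x D) :
    ∃ s : ℝ → ℝ, s 0 = s0 ∧ (∀ t ∈ D, x t = c + s t • v) ∧ ContinuousOn s D ∧
      (∀ t ∈ D, HasDerivWithinAt s (drift R k μ (c + s t • v)) (Ici t) t) ∧
      (∀ t ∈ D, min a s0 ≤ s t ∧ s t ≤ max b s0) := by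
  obtain ⟨s, hs0, hline, hsc, hsd⟩ := scalar_of_solution R v μ hv hμ c (fun _ => k) D hD0 hDseg
    x s0 hx0 hsol.1 (fun t ht => (hsol.2 t ht).2)
  have hJ : ∀ t ∈ D, ∀ i, 0 < c i + s t * v i := by
    intro t ht i
    have := (hsol.2 t ht).1 i
    rw [hline t ht] at this
    simpa using this
  have hsd' : ∀ t ∈ D, HasDerivWithinAt s (drift R k μ (c + s t • v)) (Ici t) t := by
    intro t ht
    have := hsd t ht
    rw [hline t ht] at this
    exact this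
  refine ⟨s, hs0, hline, hsc, hsd', ?_⟩
  intro t ht
  have hIcc : Icc 0 t ⊆ D := hDseg t ht
  have hIco : ∀ τ ∈ Ico 0 t, τ ∈ D := fun τ hτ => hIcc ⟨hτ.1, hτ.2.le⟩
  constructor
  · refine barrier_lower (s := s) (s' := fun t => drift R k μ (c + s t • v)) (hsc.mono hIcc)
      (fun τ hτ => hsd' τ (hIco τ hτ)) (by rw [hs0]; exact min_le_right _ _) ?_ t
      ⟨hD0 t ht, le_rfl⟩
    intro τ hτ hsτ
    have hτD := hIco τ hτ
    have h1 : s τ ≤ a := by rw [hsτ]; exact min_le_left _ _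
    exact hapos (s τ) h1 (hJ τ hτD)
  · refine barrier_upper (s := s) (s' := fun t => drift R k μ (c + s t • v)) (hsc.mono hIcc)
      (fun τ hτ => hsd' τ (hIco τ hτ)) (by rw [hs0]; exact le_max_right _ _) ?_ t
      ⟨hD0 t ht, le_rfl⟩
    intro τ hτ hsτ
    have hτD := hIco τ hτ
    have h1 : b ≤ s τ := by rw [hsτ]; exact le_max_left _ _
    exact hbneg (s τ) h1 (hJ τ hτD)

lemma drift_line_contDiff {d : ℕ} (R : Finset (Rxn d)) (κ μ : Rxn d → ℝ)
    (c v : Fin d → ℝ) : ContDiff ℝ 1 (fun σ : ℝ => drift R κ μ (c + σ • v)) := by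
  unfold drift mono
  apply ContDiff.sum
  intro r _
  apply ContDiff.mul contDiff_const
  apply contDiff_prod
  intro i _
  apply ContDiff.pow
  simp only [Pi.add_apply, Pi.smul_apply, smul_eq_mul]
  fun_prop

lemma drift_line_lipschitz {d : ℕ} (R : Finset (Rxn d)) (κ μ : Rxn d → ℝ)
    (c v : Fin d → ℝ) (a0 b0 : ℝ) :
    ∃ K : ℝ≥0, LipschitzOnWith K (fun σ : ℝ => drift R κ μ (c + σ • v)) (Icc a0 b0) :=
  (drift_line_contDiff R κ μ c v).contDiffOn.exists_lipschitzOnWith one_ne_zero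
    (convex_Icc a0 b0) isCompact_Icc

/-- Existence of a global positive solution from every point of the class. -/
lemma global_solution {d : ℕ} (R : Finset (Rxn d)) (v : Fin d → ℝ) (μ : Rxn d → ℝ)
    (hμ : ∀ r ∈ R, rvec r = μ r • v) (c : Fin d → ℝ) (k : Rxn d → ℝ) (a b : ℝ)
    (haJ : ∀ i, 0 < c i + a * v i) (hbJ : ∀ i, 0 < c i + b * v i)
    (hapos : ∀ s, s ≤ a → (∀ i, 0 < c i + s * v i) → 0 < drift R k μ (c + s • v))
    (hbneg : ∀ s, b ≤ s → (∀ i, 0 < c i + s * v i) → drift R k μ (c + s • v) < 0)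
    (s0 : ℝ) (hs0J : ∀ i, 0 < c i + s0 * v i) :
    ∃ s : ℝ → ℝ, s 0 = s0 ∧ ∀ t ∈ Ici (0 : ℝ), (∀ i, 0 < c i + s t * v i) ∧
      HasDerivWithinAt (fun t => c + s t • v) (field R k (c + s t • v)) (Ici 0) t := by
  have hminJ : ∀ i, 0 < c i + min a s0 * v i := by
    rcases min_choice a s0 with h | h <;> rw [h]
    · exact haJ
    · exact hs0J
  have hmaxJ : ∀ i, 0 < c i + max b s0 * v i := by
    rcases max_choice b s0 with h | h <;> rw [h]
    · exact hbJ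
    · exact hs0J
  obtain ⟨K, hK⟩ := drift_line_lipschitz R k μ c v (min a s0) (max b s0)
  obtain ⟨s, hs0, hs⟩ := scalar_global_exists (fun σ : ℝ => drift R k μ (c + σ • v))
    (min a s0) (max b s0) s0 ⟨min_le_right _ _, le_max_right _ _⟩ K hK
    (hapos _ (min_le_left _ _) hminJ) (hbneg _ (le_max_left _ _) hmaxJ)
  refine ⟨s, hs0, fun t ht => ⟨?_, ?_⟩⟩
  · exact line_conv c v _ _ (s t) hminJ hmaxJ (hs t ht).1.1 (hs t ht).1.2
  · have h1 := ((hs t ht).2.smul_const v).const_add c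
    rw [field_eq_drift R k v μ hμ]
    exact h1

/-- Two positive solutions on `D` starting from the same point of the class coincide. -/
lemma local_unique {d : ℕ} (R : Finset (Rxn d)) (v : Fin d → ℝ) (μ : Rxn d → ℝ)
    (hv : v ≠ 0) (hμ : ∀ r ∈ R, rvec r = μ r • v) (c : Fin d → ℝ) (k : Rxn d → ℝ) (a b : ℝ)
    (hapos : ∀ s, s ≤ a → (∀ i, 0 < c i + s * v i) → 0 < drift R k μ (c + s • v))
    (hbneg : ∀ s, b ≤ s → (∀ i, 0 < c i + s * v i) → drift R k μ (c + s • v) < 0)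
    (D : Set ℝ) (hD0 : ∀ t ∈ D, 0 ≤ t) (hDseg : ∀ t ∈ D, Icc 0 t ⊆ D)
    (x y : ℝ → Fin d → ℝ) (s0 : ℝ) (hx0 : x 0 = c + s0 • v) (hy0 : y 0 = c + s0 • v)
    (hx : IsSolOn R (fun _ => k) x D) (hy : IsSolOn R (fun _ => k) y D) :
    ∀ t ∈ D, x t = y t := by
  obtain ⟨sx, hsx0, hxline, hsxc, hsxd, hsxb⟩ :=
    const_scalar R v μ hv hμ c k a b hapos hbneg D hD0 hDseg x s0 hx0 hx
  obtain ⟨sy, hsy0, hyline, hsyc, hsyd, hsyb⟩ :=
    const_scalar R v μ hv hμ c k a b hapos hbneg D hD0 hDseg y s0 hy0 hy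
  obtain ⟨K, hK⟩ := drift_line_lipschitz R k μ c v (min a s0) (max b s0)
  intro t ht
  have hIcc : Icc 0 t ⊆ D := hDseg t ht
  have hIco : ∀ τ ∈ Ico 0 t, τ ∈ D := fun τ hτ => hIcc ⟨hτ.1, hτ.2.le⟩
  have key := ODE_solution_unique_of_mem_Icc_right
    (v := fun _ => fun σ : ℝ => drift R k μ (c + σ • v))
    (s := fun _ => Icc (min a s0) (max b s0)) (K := K) (f := sx) (g := sy) (a := 0) (b := t)
    (fun _ _ => hK) (hsxc.mono hIcc) (fun τ hτ => hsxd τ (hIco τ hτ))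
    (fun τ hτ => hsxb τ (hIco τ hτ)) (hsyc.mono hIcc) (fun τ hτ => hsyd τ (hIco τ hτ))
    (fun τ hτ => hsyb τ (hIco τ hτ)) (by rw [hsx0, hsy0])
  have hst := key ⟨hD0 t ht, le_rfl⟩
  rw [hxline t ht, hyline t ht, hst]

end Vale.Agent.Lib.P072.H28
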