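import Mathlib

/-!
# P072 (helper28): barrier and absorption lemmas for scalar differential inequalities
-/

namespace Vale.Agent.Lib.P072.H28

open Set

/-- Lower barrier: a function whose right derivative is positive whenever it sits at the
level `a` cannot cross below `a`. -/
lemma barrier_lower {s s' : ℝ → ℝ} {t0 t1 a : ℝ}
    (hc : ContinuousOn s (Icc t0 t1))
    (hd : ∀ t ∈ Ico t0 t1, HasDerivWithinAt s (s' t) (Ici t) t)
    (h0 : a ≤ s t0) (hb : ∀ t ∈ Ico t0 t1, s t = a → 0 < s' t) :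
    ∀ t ∈ Icc t0 t1, a ≤ s t := by
  intro t ht
  have key := image_le_of_deriv_right_lt_deriv_boundary' (f := fun _ => a) (f' := fun _ => 0)
    (B := s) (B' := s') continuousOn_const (fun x _ => hasDerivWithinAt_const x _ a) h0 hc hd
    (fun x hx hax => hb x hx hax.symm)
  exact key ht

/-- Upper barrier. -/
lemma barrier_upper {s s' : ℝ → ℝ} {t0 t1 b : ℝ}
    (hc : ContinuousOn s (Icc t0 t1))
    (hd : ∀ t ∈ Ico t0 t1, HasDerivWithinAt s (s' t) (Ici t) t)
    (h0 : s t0 ≤ b) (hb : ∀ t ∈ Ico t0 t1, s t = b → s' t < 0) :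
    ∀ t ∈ Icc t0 t1, s t ≤ b := by
  intro t ht
  have key := image_le_of_deriv_right_lt_deriv_boundary' (f := s) (f' := s')
    (B := fun _ => b) (B' := fun _ => 0) hc hd h0 continuousOn_const
    (fun x _ => hasDerivWithinAt_const x _ b) hb
  exact key ht

/-- Linear growth from a lower bound on the right derivative. -/
lemma growth_lower {s s' : ℝ → ℝ} {t0 t1 m : ℝ}
    (hc : ContinuousOn s (Icc t0 t1))
    (hd : ∀ t ∈ Ico t0 t1, HasDerivWithinAt s (s' t) (Ici t) t)
    (hm : ∀ t ∈ Ico t0 t1, m ≤ s' t) :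
    ∀ t ∈ Icc t0 t1, s t0 + m * (t - t0) ≤ s t := by
  intro t ht
  have hder : ∀ x ∈ Ico t0 t1,
      HasDerivWithinAt (fun t => s t0 + m * (t - t0)) m (Ici x) x := by
    intro x _
    have h1 : HasDerivAt (fun t : ℝ => s t0 + m * (t - t0)) (m * 1) x :=
      (((hasDerivAt_id x).sub_const t0).const_mul m).const_add (s t0)
    simpa using h1.hasDerivWithinAt
  have key := image_le_of_deriv_right_le_deriv_boundary
    (f := fun t => s t0 + m * (t - t0)) (f' := fun _ => m) (B := s) (B' := s')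
    (by fun_prop) hder (by simp) hc hd hm
  exact key ht

/-- Absorption from below: if the right derivative is at least `m > 0` whenever the
function is at most `a`, then the function is eventually at least `a`. -/
lemma absorb_lower {s s' : ℝ → ℝ} {a m : ℝ} (hm : 0 < m)
    (hc : ContinuousOn s (Ici 0))
    (hd : ∀ t ∈ Ici (0 : ℝ), HasDerivWithinAt s (s' t) (Ici t) t)
    (hpos : ∀ t ∈ Ici (0 : ℝ), s t ≤ a → m ≤ s' t) :
    ∃ T, 0 ≤ T ∧ ∀ t, T ≤ t → a ≤ s t := by
  have hex : ∃ t1, 0 ≤ t1 ∧ a ≤ s t1 := by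
    by_contra hcon
    have hcon' : ∀ t1, 0 ≤ t1 → s t1 < a := by
      intro t1 ht1
      by_contra h
      exact hcon ⟨t1, ht1, not_lt.mp h⟩
    have h0 := hcon' 0 le_rfl
    have hT1 : 0 ≤ (a - s 0) / m + 1 := by
      have : 0 ≤ (a - s 0) / m := div_nonneg (by linarith) hm.le
      linarith
    have hg := growth_lower (s := s) (s' := s') (t0 := 0) (t1 := (a - s 0) / m + 1) (m := m)
      (hc.mono Icc_subset_Ici_self) (fun t ht => hd t ht.1)
      (fun t ht => hpos t ht.1 (hcon' t ht.1).le) ((a - s 0) / m + 1) ⟨hT1, le_rfl⟩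
    have h2 := hcon' _ hT1
    have h3 : m * ((a - s 0) / m + 1 - 0) = a - s 0 + m := by
      field_simp
      ring
    linarith
  obtain ⟨t1, ht1, hat1⟩ := hex
  refine ⟨t1, ht1, fun t ht => ?_⟩
  exact barrier_lower (s := s) (s' := s') (t0 := t1) (t1 := t)
    (hc.mono (fun x hx => le_trans ht1 hx.1)) (fun x hx => hd x (le_trans ht1 hx.1)) hat1
    (fun x hx hxa => lt_of_lt_of_le hm (hpos x (le_trans ht1 hx.1) hxa.le)) t ⟨ht, le_rfl⟩

/-- Absorption from above. -/
lemma absorb_upper {s s' : ℝ → ℝ} {b m : ℝ} (hm : 0 < m)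
    (hc : ContinuousOn s (Ici 0))
    (hd : ∀ t ∈ Ici (0 : ℝ), HasDerivWithinAt s (s' t) (Ici t) t)
    (hneg : ∀ t ∈ Ici (0 : ℝ), b ≤ s t → s' t ≤ -m) :
    ∃ T, 0 ≤ T ∧ ∀ t, T ≤ t → s t ≤ b := by
  obtain ⟨T, hT, h⟩ := absorb_lower (s := fun t => -s t) (s' := fun t => -s' t) (a := -b) hm
    hc.neg (fun t ht => (hd t ht).neg)
    (fun t ht hle => by have := hneg t ht (by linarith); linarith)
  exact ⟨T, hT, fun t ht => by have := h t ht; linarith⟩

end Vale.Agent.Lib.P072.H28
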