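import Vale.Agent.Lib.P072.H28.Ends
import Vale.Agent.Lib.P072.H28.Scalar

/-!
# P072 (helper28): permanence when the stoichiometric subspace is a line
-/

namespace Vale.Agent.Lib.P072.H28

open scoped BigOperators Topology
open Set

/-- If the stoichiometric subspace has dimension one, it is spanned by one vector `v` and
every reaction vector is a multiple of `v`. -/
lemma line_structure {d : ℕ} (R : Finset (Rxn d))
    (hdim : Module.finrank ℝ (stoich R) = 1) :
    ∃ (v : Fin d → ℝ) (μ : Rxn d → ℝ), v ≠ 0 ∧ R.Nonempty ∧ (∀ r ∈ R, rvec r = μ r • v) ∧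
      ∀ x : Fin d → ℝ, x ∈ stoich R ↔ ∃ s : ℝ, x = s • v := by
  obtain ⟨⟨v, hvS⟩, hv0, hall⟩ := finrank_eq_one_iff'.mp hdim
  have hv0' : v ≠ 0 := fun h => hv0 (Subtype.ext h)
  have hmem : ∀ x : Fin d → ℝ, x ∈ stoich R ↔ ∃ s : ℝ, x = s • v := by
    intro x
    constructor
    · intro hx
      obtain ⟨s, hs⟩ := hall ⟨x, hx⟩
      exact ⟨s, by simpa using (congrArg Subtype.val hs).symm⟩
    · rintro ⟨s, rfl⟩
      exact (stoich R).smul_mem s hvS
  have hμ : ∀ r ∈ R, ∃ μ : ℝ, rvec r = μ • v := fun r hr =>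
    (hmem _).mp (Submodule.subset_span ⟨r, hr, rfl⟩)
  choose! μ hμ' using hμ
  refine ⟨v, μ, hv0', ?_, hμ', hmem⟩
  by_contra hR
  rw [Finset.not_nonempty_iff_eq_empty] at hR
  apply hv0'
  have hvS' : v ∈ stoich R := hvS
  rw [stoich, hR] at hvS'
  simpa using hvS'

lemma field_eq_drift {d : ℕ} (R : Finset (Rxn d)) (k : Rxn d → ℝ) (v : Fin d → ℝ)
    (μ : Rxn d → ℝ) (hμ : ∀ r ∈ R, rvec r = μ r • v) (x : Fin d → ℝ) :
    field R k x = drift R k μ x • v := by
  unfold field drift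
  rw [Finset.sum_smul]
  apply Finset.sum_congr rfl
  intro r hr
  rw [hμ r hr, smul_smul]
  congr 1
  ring

lemma mono_nonneg {d : ℕ} (y : Cplx d) (x : Fin d → ℝ) (hx : ∀ i, 0 ≤ x i) : 0 ≤ mono y x :=
  Finset.prod_nonneg (fun i _ => pow_nonneg (hx i) _)

/-- The rates making the drift smallest. -/
noncomputable def rateLo {d : ℕ} (lo hi μ : Rxn d → ℝ) : Rxn d → ℝ :=
  fun r => if 0 < μ r then lo r else hi r

/-- The rates making the drift largest. -/
noncomputable def rateHi {d : ℕ} (lo hi μ : Rxn d → ℝ) : Rxn d → ℝ :=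
  fun r => if 0 < μ r then hi r else lo r

lemma drift_ge_lo {d : ℕ} (R : Finset (Rxn d)) (lo hi μ κ : Rxn d → ℝ)
    (hκ : ∀ r ∈ R, lo r ≤ κ r ∧ κ r ≤ hi r) (x : Fin d → ℝ) (hx : ∀ i, 0 ≤ x i) :
    drift R (rateLo lo hi μ) μ x ≤ drift R κ μ x := by
  unfold drift
  apply Finset.sum_le_sum
  intro r hr
  have hM := mono_nonneg r.1 x hx
  obtain ⟨h1, h2⟩ := hκ r hr
  unfold rateLo
  split_ifs with hμ
  · have : 0 ≤ (κ r - lo r) * (μ r * mono r.1 x) :=
      mul_nonneg (by linarith) (mul_nonneg hμ.le hM)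
    nlinarith
  · have hμ' : μ r ≤ 0 := not_lt.mp hμ
    have : 0 ≤ (hi r - κ r) * (-(μ r) * mono r.1 x) :=
      mul_nonneg (by linarith) (mul_nonneg (by linarith) hM)
    nlinarith

lemma drift_le_hi {d : ℕ} (R : Finset (Rxn d)) (lo hi μ κ : Rxn d → ℝ)
    (hκ : ∀ r ∈ R, lo r ≤ κ r ∧ κ r ≤ hi r) (x : Fin d → ℝ) (hx : ∀ i, 0 ≤ x i) :
    drift R κ μ x ≤ drift R (rateHi lo hi μ) μ x := by
  unfold drift
  apply Finset.sum_le_sum
  intro r hr
  have hM := mono_nonneg r.1 x hx
  obtain ⟨h1, h2⟩ := hκ r hr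
  unfold rateHi
  split_ifs with hμ
  · have : 0 ≤ (hi r - κ r) * (μ r * mono r.1 x) :=
      mul_nonneg (by linarith) (mul_nonneg hμ.le hM)
    nlinarith
  · have hμ' : μ r ≤ 0 := not_lt.mp hμ
    have : 0 ≤ (κ r - lo r) * (-(μ r) * mono r.1 x) :=
      mul_nonneg (by linarith) (mul_nonneg (by linarith) hM)
    nlinarith

lemma drift_line_continuous {d : ℕ} (R : Finset (Rxn d)) (κ μ : Rxn d → ℝ)
    (c v : Fin d → ℝ) : Continuous (fun σ : ℝ => drift R κ μ (c + σ • v)) := by
  unfold drift mono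
  apply continuous_finsetSum
  intro r _
  apply Continuous.mul continuous_const
  apply continuous_finsetProd
  intro i _
  apply Continuous.pow
  simp only [Pi.add_apply, Pi.smul_apply, smul_eq_mul]
  fun_prop

/-- A positive solution, in right-derivative form, of the mass-action system with
(possibly time-dependent) rates `k` on the time set `D`. -/
def IsSolOn {d : ℕ} (R : Finset (Rxn d)) (k : ℝ → Rxn d → ℝ) (x : ℝ → Fin d → ℝ)
    (D : Set ℝ) : Prop :=
  ContinuousOn x D ∧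
    ∀ t ∈ D, (∀ i, 0 < x t i) ∧ HasDerivWithinAt x (field R (k t) (x t)) (Ici t) t

/-- A solution starting on the line `c + ℝ v` stays on it, and its coordinate along `v`
solves a scalar equation. -/
lemma scalar_of_solution {d : ℕ} (R : Finset (Rxn d)) (v : Fin d → ℝ) (μ : Rxn d → ℝ)
    (hv : v ≠ 0) (hμ : ∀ r ∈ R, rvec r = μ r • v) (c : Fin d → ℝ) (k : ℝ → Rxn d → ℝ)
    (D : Set ℝ) (hD0 : ∀ t ∈ D, 0 ≤ t) (hDseg : ∀ t ∈ D, Icc 0 t ⊆ D)
    (x : ℝ → Fin d → ℝ) (s0 : ℝ) (hx0 : x 0 = c + s0 • v)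
    (hxc : ContinuousOn x D)
    (hxd : ∀ t ∈ D, HasDerivWithinAt x (field R (k t) (x t)) (Ici t) t) :
    ∃ s : ℝ → ℝ, s 0 = s0 ∧ (∀ t ∈ D, x t = c + s t • v) ∧ ContinuousOn s D ∧
      ∀ t ∈ D, HasDerivWithinAt s (drift R (k t) μ (x t)) (Ici t) t := by
  obtain ⟨i0, hi0⟩ : ∃ i0, v i0 ≠ 0 := by
    by_contra h
    apply hv
    funext i
    by_contra hi
    exact h ⟨i, hi⟩
  have hxi : ∀ j, ContinuousOn (fun τ => x τ j) D := fun j =>
    (continuous_apply j).comp_continuousOn hxc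
  refine ⟨fun t => (x t i0 - c i0) / v i0, ?_, ?_, ?_, ?_⟩
  · simp [hx0, hi0]
  · intro t ht
    funext i
    have hcont : ContinuousOn
        (fun τ => x τ i - c i - (x τ i0 - c i0) / v i0 * v i) (Icc 0 t) := by
      have h1 := (hxi i).mono (hDseg t ht)
      have h2 := (hxi i0).mono (hDseg t ht)
      exact (h1.sub continuousOn_const).sub
        (((h2.sub continuousOn_const).div_const _).mul continuousOn_const)
    have hder : ∀ τ ∈ Ico 0 t, HasDerivWithinAt
        (fun τ => x τ i - c i - (x τ i0 - c i0) / v i0 * v i) 0 (Ici τ) τ := by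
      intro τ hτ
      have hτD : τ ∈ D := hDseg t ht ⟨hτ.1, hτ.2.le⟩
      have hpi := hasDerivWithinAt_pi.mp (hxd τ hτD)
      have h1 := ((hpi i).sub_const (c i)).sub
        ((((hpi i0).sub_const (c i0)).div_const (v i0)).mul_const (v i))
      have hval : field R (k τ) (x τ) i - field R (k τ) (x τ) i0 / v i0 * v i = 0 := by
        rw [field_eq_drift R (k τ) v μ hμ]
        simp only [Pi.smul_apply, smul_eq_mul]
        field_simp
        ring
      rw [hval] at h1
      exact h1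
    have hconst := constant_of_has_deriv_right_zero hcont hder t ⟨hD0 t ht, le_rfl⟩
    have h0 : x 0 i - c i - (x 0 i0 - c i0) / v i0 * v i = 0 := by
      rw [hx0]
      simp only [Pi.add_apply, Pi.smul_apply, smul_eq_mul]
      field_simp
      ring
    simp only [h0] at hconst
    simp only [Pi.add_apply, Pi.smul_apply, smul_eq_mul]
    linarith
  · exact ((hxi i0).sub continuousOn_const).div_const _
  · intro t ht
    have hpi := hasDerivWithinAt_pi.mp (hxd t ht)
    have h1 := ((hpi i0).sub_const (c i0)).div_const (v i0)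
    have hval : field R (k t) (x t) i0 / v i0 = drift R (k t) μ (x t) := by
      rw [field_eq_drift R (k t) v μ hμ]
      simp only [Pi.smul_apply, smul_eq_mul]
      field_simp
    rw [hval] at h1
    exact h1

end Vale.Agent.Lib.P072.H28
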