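import Vale.Agent.Lib.P072.H28.Main

/-!
# P072 (helper28): the permanence theorem for one-dimensional stoichiometric subspaces,
general form (rates may depend on time, within fixed positive bounds)
-/

namespace Vale.Agent.Lib.P072.H28

open scoped BigOperators Topology
open Set

theorem permanence_general {d : ℕ} (R : Finset (Rxn d)) (hne : ∀ r ∈ R, r.1 ≠ r.2)
    (hwr : WeaklyReversible R) (hdim : Module.finrank ℝ (stoich R) = 1)
    (c : Fin d → ℝ) (hc : ∀ i, 0 < c i) (lo hi : Rxn d → ℝ) (hlo : ∀ r ∈ R, 0 < lo r)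
    (hlohi : ∀ r ∈ R, lo r ≤ hi r) :
    ∃ K : Set (Fin d → ℝ), IsCompact K ∧ K ⊆ posClass R c ∧
      (∀ x0 ∈ posClass R c, ∃ K0 : Set (Fin d → ℝ), IsCompact K0 ∧ K0 ⊆ posClass R c ∧
        ∀ (k : ℝ → Rxn d → ℝ), (∀ t, ∀ r ∈ R, lo r ≤ k t r ∧ k t r ≤ hi r) →
        ∀ (D : Set ℝ) (x : ℝ → Fin d → ℝ), (∀ t ∈ D, 0 ≤ t) → (∀ t ∈ D, Icc 0 t ⊆ D) →
          x 0 = x0 → IsSolOn R k x D → ∀ t ∈ D, x t ∈ K0) ∧
      (∀ (k : ℝ → Rxn d → ℝ), (∀ t, ∀ r ∈ R, lo r ≤ k t r ∧ k t r ≤ hi r) →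
        ∀ x : ℝ → Fin d → ℝ, x 0 ∈ posClass R c → IsSolOn R k x (Ici 0) →
          ∃ T, ∀ t, T ≤ t → x t ∈ K) := by
  classical
  obtain ⟨v, μ, hv0, hRne, hμ, hmem⟩ := line_structure R hdim
  have hklo : ∀ r ∈ R, 0 < rateLo lo hi μ r := by
    intro r hr
    unfold rateLo
    split_ifs
    · exact hlo r hr
    · exact lt_of_lt_of_le (hlo r hr) (hlohi r hr)
  have hkhi : ∀ r ∈ R, 0 < rateHi lo hi μ r := by
    intro r hr
    unfold rateHi
    split_ifs
    · exact lt_of_lt_of_le (hlo r hr) (hlohi r hr)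
    · exact hlo r hr
  obtain ⟨b, hb0, hbJ, hbneg⟩ :=
    end_any R hRne hne hwr v hv0 μ hμ (rateHi lo hi μ) hkhi c hc
  obtain ⟨a', ha0, haJ', haneg⟩ :=
    end_any R hRne hne hwr (-v) (neg_ne_zero.mpr hv0) (fun r => -μ r)
      (fun r hr => by rw [hμ r hr]; simp) (rateLo lo hi μ) hklo c hc
  have haJ : ∀ i, 0 < c i + (-a') * v i := fun i => by
    have := haJ' i
    simpa using this
  have hapos : ∀ s, s ≤ -a' → (∀ i, 0 < c i + s * v i) →
      0 < drift R (rateLo lo hi μ) μ (c + s • v) := by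
    intro s hs hpos
    have h1 := haneg (-s) (by linarith) (fun i => by have := hpos i; simpa using this)
    have hx : c + (-s) • (-v) = c + s • v := by simp
    rw [hx] at h1
    have hd : drift R (rateLo lo hi μ) (fun r => -μ r) (c + s • v) =
        - drift R (rateLo lo hi μ) μ (c + s • v) := by
      unfold drift
      rw [← Finset.sum_neg_distrib]
      apply Finset.sum_congr rfl
      intros
      ring
    linarith
  have hconv : ∀ s1 s2 s : ℝ, (∀ i, 0 < c i + s1 * v i) → (∀ i, 0 < c i + s2 * v i) →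
      s1 ≤ s → s ≤ s2 → ∀ i, 0 < c i + s * v i := by
    intro s1 s2 s h1 h2 hs1 hs2 i
    rcases le_or_gt 0 (v i) with hvi | hvi
    · have := mul_le_mul_of_nonneg_right hs1 hvi
      linarith [h1 i]
    · have := mul_le_mul_of_nonpos_right hs2 hvi.le
      linarith [h2 i]
  have hseg_compact : ∀ p q : ℝ, IsCompact ((fun s : ℝ => c + s • v) '' Icc p q) :=
    fun p q => isCompact_Icc.image (by fun_prop)
  have hseg_sub : ∀ p q : ℝ, (∀ i, 0 < c i + p * v i) → (∀ i, 0 < c i + q * v i) →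
      (fun s : ℝ => c + s • v) '' Icc p q ⊆ posClass R c := by
    rintro p q hp hq _ ⟨s, hs, rfl⟩
    refine ⟨?_, ?_⟩
    · rw [add_sub_cancel_left]
      exact (hmem _).mpr ⟨s, rfl⟩
    · intro i
      simpa using hconv p q s hp hq hs.1 hs.2 i
  have hclass : ∀ x0 ∈ posClass R c, ∃ s0 : ℝ, x0 = c + s0 • v ∧ ∀ i, 0 < c i + s0 * v i := by
    intro x0 hx0
    obtain ⟨s0, hs0⟩ := (hmem _).mp hx0.1
    have hx0' : x0 = c + s0 • v := by rw [← hs0]; abel
    refine ⟨s0, hx0', fun i => ?_⟩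
    have := hx0.2 i
    rw [hx0'] at this
    simpa using this
  -- scalar description of an arbitrary solution
  have hscal : ∀ (k : ℝ → Rxn d → ℝ), (∀ t, ∀ r ∈ R, lo r ≤ k t r ∧ k t r ≤ hi r) →
      ∀ (D : Set ℝ) (x : ℝ → Fin d → ℝ) (s0 : ℝ), (∀ t ∈ D, 0 ≤ t) → (∀ t ∈ D, Icc 0 t ⊆ D) →
      x 0 = c + s0 • v → IsSolOn R k x D →
      ∃ s s' : ℝ → ℝ, s 0 = s0 ∧ (∀ t ∈ D, x t = c + s t • v) ∧ ContinuousOn s D ∧
        (∀ t ∈ D, HasDerivWithinAt s (s' t) (Ici t) t) ∧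
        (∀ t ∈ D, ∀ i, 0 < c i + s t * v i) ∧
        (∀ t ∈ D, drift R (rateLo lo hi μ) μ (c + s t • v) ≤ s' t) ∧
        (∀ t ∈ D, s' t ≤ drift R (rateHi lo hi μ) μ (c + s t • v)) ∧
        (∀ t ∈ D, min (-a') s0 ≤ s t ∧ s t ≤ max b s0) := by
    intro k hk D x s0 hD0 hDseg hx0 hsol
    obtain ⟨s, hs0, hline, hsc, hsd⟩ := scalar_of_solution R v μ hv0 hμ c k D hD0 hDseg x s0 hx0
      hsol.1 (fun t ht => (hsol.2 t ht).2)
    have hJ : ∀ t ∈ D, ∀ i, 0 < c i + s t * v i := by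
      intro t ht i
      have := (hsol.2 t ht).1 i
      rw [hline t ht] at this
      simpa using this
    have hxnn : ∀ t ∈ D, ∀ i, 0 ≤ (c + s t • v) i := by
      intro t ht i
      have := hJ t ht i
      simp only [Pi.add_apply, Pi.smul_apply, smul_eq_mul]
      exact this.le
    have hlow : ∀ t ∈ D, drift R (rateLo lo hi μ) μ (c + s t • v) ≤ drift R (k t) μ (x t) := by
      intro t ht
      rw [hline t ht]
      exact drift_ge_lo R lo hi μ (k t) (hk t) _ (hxnn t ht)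
    have hupp : ∀ t ∈ D, drift R (k t) μ (x t) ≤ drift R (rateHi lo hi μ) μ (c + s t • v) := by
      intro t ht
      rw [hline t ht]
      exact drift_le_hi R lo hi μ (k t) (hk t) _ (hxnn t ht)
    refine ⟨s, fun t => drift R (k t) μ (x t), hs0, hline, hsc, hsd, hJ, hlow, hupp, ?_⟩
    intro t ht
    have hIcc : Icc 0 t ⊆ D := hDseg t ht
    have hIco : ∀ τ ∈ Ico 0 t, τ ∈ D := fun τ hτ => hIcc ⟨hτ.1, hτ.2.le⟩
    constructor
    · refine barrier_lower (s := s) (s' := fun t => drift R (k t) μ (x t)) (hsc.mono hIcc)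
        (fun τ hτ => hsd τ (hIco τ hτ)) (by rw [hs0]; exact min_le_right _ _) ?_ t
        ⟨hD0 t ht, le_rfl⟩
      intro τ hτ hsτ
      have hτD := hIco τ hτ
      have h1 : s τ ≤ -a' := by rw [hsτ]; exact min_le_left _ _
      exact lt_of_lt_of_le (hapos (s τ) h1 (hJ τ hτD)) (hlow τ hτD)
    · refine barrier_upper (s := s) (s' := fun t => drift R (k t) μ (x t)) (hsc.mono hIcc)
        (fun τ hτ => hsd τ (hIco τ hτ)) (by rw [hs0]; exact le_max_right _ _) ?_ t
        ⟨hD0 t ht, le_rfl⟩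
      intro τ hτ hsτ
      have hτD := hIco τ hτ
      have h1 : b ≤ s τ := by rw [hsτ]; exact le_max_left _ _
      exact lt_of_le_of_lt (hupp τ hτD) (hbneg (s τ) h1 (hJ τ hτD))
  refine ⟨(fun s : ℝ => c + s • v) '' Icc (-a') b, hseg_compact _ _, hseg_sub _ _ haJ hbJ, ?_, ?_⟩
  · -- no escape
    intro x0 hx0
    obtain ⟨s0, hx0eq, hs0J⟩ := hclass x0 hx0
    have hminJ : ∀ i, 0 < c i + min (-a') s0 * v i := by
      rcases min_choice (-a') s0 with h | h <;> rw [h]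
      · exact haJ
      · exact hs0J
    have hmaxJ : ∀ i, 0 < c i + max b s0 * v i := by
      rcases max_choice b s0 with h | h <;> rw [h]
      · exact hbJ
      · exact hs0J
    refine ⟨(fun s : ℝ => c + s • v) '' Icc (min (-a') s0) (max b s0), hseg_compact _ _,
      hseg_sub _ _ hminJ hmaxJ, ?_⟩
    intro k hk D x hD0 hDseg hx0' hsol
    obtain ⟨s, s', -, hline, -, -, -, -, -, hbd⟩ :=
      hscal k hk D x s0 hD0 hDseg (by rw [hx0', hx0eq]) hsol
    intro t ht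
    exact ⟨s t, hbd t ht, (hline t ht).symm⟩
  · -- absorbing set
    intro k hk x hx0 hsol
    obtain ⟨s0, hx0eq, hs0J⟩ := hclass (x 0) hx0
    obtain ⟨s, s', hs0, hline, hsc, hsd, hJ, hlow, hupp, hbd⟩ :=
      hscal k hk (Ici 0) x s0 (fun t ht => ht) (fun t _ => Icc_subset_Ici_self) hx0eq hsol
    have hminJ : ∀ i, 0 < c i + min (-a') s0 * v i := by
      rcases min_choice (-a') s0 with h | h <;> rw [h]
      · exact haJ
      · exact hs0J
    have hmaxJ : ∀ i, 0 < c i + max b s0 * v i := by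
      rcases max_choice b s0 with h | h <;> rw [h]
      · exact hbJ
      · exact hs0J
    -- lower absorption
    obtain ⟨σ1, hσ1, hσ1min⟩ := (isCompact_Icc (a := min (-a') s0) (b := -a')).exists_isMinOn
      (nonempty_Icc.mpr (min_le_left _ _))
      (drift_line_continuous R (rateLo lo hi μ) μ c v).continuousOn
    have hm1 : 0 < drift R (rateLo lo hi μ) μ (c + σ1 • v) :=
      hapos σ1 hσ1.2 (hconv _ _ σ1 hminJ haJ hσ1.1 hσ1.2)
    obtain ⟨T1, hT1, hT1'⟩ := absorb_lower (s := s) (s' := s') (a := -a') hm1 hsc hsd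
      (fun t ht hle => le_trans (hσ1min ⟨(hbd t ht).1, hle⟩) (hlow t ht))
    -- upper absorption
    obtain ⟨σ2, hσ2, hσ2max⟩ := (isCompact_Icc (a := b) (b := max b s0)).exists_isMaxOn
      (nonempty_Icc.mpr (le_max_left _ _))
      (drift_line_continuous R (rateHi lo hi μ) μ c v).continuousOn
    have hm2 : drift R (rateHi lo hi μ) μ (c + σ2 • v) < 0 :=
      hbneg σ2 hσ2.1 (hconv _ _ σ2 hbJ hmaxJ hσ2.1 hσ2.2)
    obtain ⟨T2, hT2, hT2'⟩ := absorb_upper (s := s) (s' := s') (b := b)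
      (m := - drift R (rateHi lo hi μ) μ (c + σ2 • v)) (by linarith) hsc hsd
      (fun t ht hle => by
        have h1 := hupp t ht
        have h2 := hσ2max ⟨hle, (hbd t ht).2⟩
        simp only [neg_neg]
        exact le_trans h1 h2)
    refine ⟨max T1 T2, fun t ht => ?_⟩
    have ht1 : T1 ≤ t := le_trans (le_max_left _ _) ht
    have ht2 : T2 ≤ t := le_trans (le_max_right _ _) ht
    have htD : t ∈ Ici (0 : ℝ) := le_trans hT1 ht1
    exact ⟨s t, ⟨hT1' t ht1, hT2' t ht2⟩, (hline t htD).symm⟩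

end Vale.Agent.Lib.P072.H28
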